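import Vale.Agent.P127.Api

/-! # P127 Fa/Rel (TASK): algebra of the corrected slope.  Helper names start with `faRel_`.
Tools: `norm_mv`, `Gr.norm_le`, `Pre.norm_pos`, `Pre.be` with `Pre.sub`, `pos_shift`, `mv_add`, `mv_sub`, `mv_smul`, `sub_mv`, `smul_mv`, `cz_close`.
rel: with `τ = z1 - z0`, `κ = d.κ (cz η z0)`, `Δ = P z1 - P z0 - τ • κ` (norm at most `ξ η` by Lin) one has for every line
`u (i,z0) = u (i,z1) - τ • st (i,z0) - τ^2 • mv κ (e i) - mv Δ (pos (i,z1))`; so the vector to bound is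
`(u1 - u1') - τ • (w + st0) + τ • (w' + st0') - τ^2 • mv κ (e - e') - mv Δ (pos1 - pos1')`, and `|τ| ≤ η ≤ ξ`. -/

namespace Vale.Agent.P127

open Finset
open scoped Classical

variable {D : ℕ}

theorem faRel_mv (A : Mt D) (v : V D) {a b : ℝ} (ha : ‖A‖ ≤ a) (hb : ‖v‖ ≤ b) :
    ‖mv A v‖ ≤ D * a * b := by
  have a0 : 0 ≤ a := (norm_nonneg _).trans ha
  refine (norm_mv A v).trans ?_
  gcongr

theorem faRel_five {a b c e f : V D} {p q r s t : ℝ} (ha : ‖a‖ ≤ p) (hb : ‖b‖ ≤ q) (hc : ‖c‖ ≤ r)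
    (he : ‖e‖ ≤ s) (hf : ‖f‖ ≤ t) : ‖a - b + c - e - f‖ ≤ p + q + r + s + t :=
  norm_sub_le_of_le (norm_sub_le_of_le (norm_add_le_of_le (norm_sub_le_of_le ha hb) hc) he) hf

theorem faRel_id (τ : ℝ) (u u' s s' k k' p p' w w' : V D) :
    u - τ • s - τ ^ 2 • k - p - (u' - τ • s' - τ ^ 2 • k' - p') - τ ^ 1 • (w - w') =
      (u - u') - τ • (w + s) + τ • (w' + s') - τ ^ 2 • (k - k') - (p - p') := by
  module

theorem faRel_e {c : Cfg D} {N H K : ℝ} (h : Pre c N H K) {ω : ℕ × ℝ} (hω : ω ∈ c.E) :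
    ‖c.e ω.1‖ ≤ 1 := h.be _ (mem_product.1 (h.sub hω)).1

theorem faRel_u (d : Dat D) (η : ℝ) (i : ℕ) (z0 z1 : ℝ) :
    d.u (i, z0) = d.u (i, z1) - (z1 - z0) • d.st η (i, z0) -
      (z1 - z0) ^ 2 • mv (d.κ (cz η z0)) (d.c.e i) -
        mv (d.P z1 - d.P z0 - (z1 - z0) • d.κ (cz η z0)) (d.c.pos (i, z1)) := by
  simp only [Dat.u, Dat.st, Dat.s, sub_mv, smul_mv]
  rw [pos_shift d.c i z0 z1]
  simp only [mv_add, mv_smul]
  module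

theorem fa_st_out {d : Dat D} {K η ξ : ℝ} (hg : Gr d.S d.P) (hl : Lin d K η ξ) (ω : ℕ × ℝ)
    {i : Fin D} (hi : i ∉ d.S) : d.st η ω i = 0 := by
  simp [Dat.st, Dat.s, mv, (hg ω.2).1 i hi, fun j => hl.1 (cz η ω.2) i j (Or.inl hi)]

theorem fa_st_norm {d : Dat D} {N H K K' η ξ : ℝ} (h : Pre d.c N H K') (hg : Gr d.S d.P)
    (hl : Lin d K η ξ) (hK : 1 ≤ K) {ω : ℕ × ℝ} (hω : ω ∈ d.c.E) :
    ‖d.st η ω‖ ≤ (D * 2 ^ D + 2 * D) * K := by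
  have a1 := faRel_mv _ _ (hg.norm_le ω.2) (faRel_e h hω)
  have a2 := faRel_mv _ _ (hl.2.1 (cz η ω.2)) (h.norm_pos hω)
  have a3 : (D : ℝ) * 2 ^ D ≤ D * 2 ^ D * K := le_mul_of_one_le_right (by positivity) hK
  refine (norm_add_le _ _).trans ?_
  unfold Dat.s
  linarith

theorem fa_st_lip {d : Dat D} {K η ξ r β : ℝ} (h1 : Lip1 d K r) (hl : Lin d K η ξ) (hK : 0 ≤ K)
    (hr : r ≤ β) {ω ω' : ℕ × ℝ} (hω : ω ∈ d.c.E) (hω' : ω' ∈ d.c.E) (hz : ω.2 = ω'.2)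
    (hp : ‖d.c.pos ω - d.c.pos ω'‖ ≤ β) : ‖d.st η ω - d.st η ω'‖ ≤ (2 + D) * K * β := by
  have a1 := h1 ω hω ω' hω' hz
  have a2 := faRel_mv _ _ (hl.2.1 (cz η ω.2)) hp
  have a3 : K * (‖d.c.pos ω - d.c.pos ω'‖ + r) ≤ K * (β + β) := by gcongr
  have e : d.st η ω - d.st η ω' =
      (d.s ω - d.s ω') + mv (d.κ (cz η ω.2)) (d.c.pos ω - d.c.pos ω') := by
    simp only [Dat.st, mv_sub, hz]
    abel
  rw [e]
  refine (norm_add_le _ _).trans ?_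
  linarith

theorem fa_rel {d : Dat D} {N H K K' η ξ B : ℝ} (h : Pre d.c N H K') (hl : Lin d K η ξ)
    (hK : 1 ≤ K) (hη : 0 < η) (hηξ : η ≤ ξ) (hB : 0 ≤ B) {i i' : ℕ} {z0 z1 : ℝ}
    (h0 : (i, z0) ∈ d.c.E) (h0' : (i', z0) ∈ d.c.E) (h1 : (i, z1) ∈ d.c.E)
    (h1' : (i', z1) ∈ d.c.E) (hc : cz η z0 = cz η z1)
    (hu : ‖d.u (i, z1) - d.u (i', z1)‖ ≤ ξ * η) {w w' : V D}
    (hw : ‖w + d.st η (i, z0)‖ ≤ B * η) (hw' : ‖w' + d.st η (i', z0)‖ ≤ B * η) :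
    ‖d.u (i, z0) - d.u (i', z0) - (z1 - z0) ^ 1 • (w - w')‖ ≤
      (1 + 2 * B + 6 * D * K) * (ξ * η) := by
  have ht : |z1 - z0| ≤ η := cz_close hη hc.symm
  have hΔ : ‖d.P z1 - d.P z0 - (z1 - z0) • d.κ (cz η z0)‖ ≤ ξ * η :=
    hl.2.2 (i, z0) h0 (i, z1) h1 hc
  have he : ‖d.c.e i - d.c.e i'‖ ≤ 2 := by
    exact (norm_sub_le_of_le (faRel_e h h0) (faRel_e h h0')).trans (by norm_num)
  have hp : ‖d.c.pos (i, z1) - d.c.pos (i', z1)‖ ≤ 4 := by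
    exact (norm_sub_le_of_le (h.norm_pos h1) (h.norm_pos h1')).trans (by norm_num)
  have e : d.u (i, z0) - d.u (i', z0) - (z1 - z0) ^ 1 • (w - w') =
      (d.u (i, z1) - d.u (i', z1)) - (z1 - z0) • (w + d.st η (i, z0)) +
        (z1 - z0) • (w' + d.st η (i', z0)) -
        (z1 - z0) ^ 2 • mv (d.κ (cz η z0)) (d.c.e i - d.c.e i') -
        mv (d.P z1 - d.P z0 - (z1 - z0) • d.κ (cz η z0))
          (d.c.pos (i, z1) - d.c.pos (i', z1)) := by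
    rw [faRel_u d η i z0 z1, faRel_u d η i' z0 z1, mv_sub, mv_sub]
    exact faRel_id _ _ _ _ _ _ _ _ _ _ _
  have hξ : 0 ≤ ξ := hη.le.trans hηξ
  have b : ∀ v : V D, ‖v‖ ≤ B * η → ‖(z1 - z0) • v‖ ≤ B * (ξ * η) := fun v hv => by
    rw [norm_smul, Real.norm_eq_abs]
    exact (mul_le_mul (ht.trans hηξ) hv (norm_nonneg _) hξ).trans (le_of_eq (by ring))
  have b3 : ‖(z1 - z0) ^ 2 • mv (d.κ (cz η z0)) (d.c.e i - d.c.e i')‖ ≤ ξ * η * (D * K * 2) := by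
    rw [norm_smul, norm_pow, Real.norm_eq_abs, sq]
    exact mul_le_mul (mul_le_mul (ht.trans hηξ) ht (abs_nonneg _) hξ)
      (faRel_mv _ _ (hl.2.1 _) he) (norm_nonneg _) (by positivity)
  have b4 := faRel_mv _ _ hΔ hp
  have b5 : (D : ℝ) * (ξ * η) * 4 ≤ D * (ξ * η) * 4 * K :=
    le_mul_of_one_le_right (by positivity) hK
  have b1 := b _ hw
  have b2 := b _ hw'
  rw [e]
  refine (faRel_five hu b1 b2 b3 b4).trans ?_
  linarith only [b5]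

end Vale.Agent.P127
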