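import Vale.Agent.P127.Fa.Cnt
import Vale.Agent.P127.Fa.Rel

/-! # P127 Fa/Dc (TASK): the double count of the block FA.  Helper names start with `faDc_`.
`Y` = image under `cell β pos` of the `ω' ∈ E2` with height `z` and `‖u ω' - q‖ ≤ 2 β`; `card Y ≤ C (1/β)^(D-m)` by `fa_nT`.
Relation: `c ~ y` iff there are `ω, ω' ∈ E2` of height `z`, `cell β (st ω) = c`, `cell η (u ω') = cell η (u ω)`, `cell β (pos ω') = y`.
Use `Finset.card_nsmul_le_card_nsmul` (real bounds `a ≤` number of `y` above `c`, number of `c` below `y` `≤ b`).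
Lower bound: for `c ∈ T` take the witness `ω` and its set `G`; `G.image (cell β pos) ⊆` the `y ∈ Y` related to `c` (`cell_close`, `η ≤ β`), and
`card G ≤ card (image) * M` by `card_le_fib`, `M = C K nL η^(D-σ) (β/η)^(D-m)` (`fa_m1` with `β' = η`, `q = u ω`, `q' = pos ω'`, `T` = image of the fibre
under `Prod.fst`, injective as all heights are `z`); `a = nL η^(m-σ) / μ / M`.
Upper bound: for `y ∈ Y` with witness `ω1`, every related `c` is `cell β (st ω)` with `‖st ω - st ω1‖ ≤ ξ1 + (2 + D) K β ≤ (3 + D) K β`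
(`fa_st_lip`), so `cover` gives `b = (2 (3 + D) K + 2)^D ≤ ((8 + 2 D) K)^D`.
Finally `η^(D-σ) = η^(m-σ) η^(D-m)` as `m ≤ D` (`card_S`, `card_le_univ`). -/

namespace Vale.Agent.P127

open Finset
open scoped Classical

theorem faDc_num {T Y C1 C2 B K nL e η β μ : ℝ} {k D : ℕ} (hC2 : 0 < C2) (hK : 0 < K)
    (hn : 0 < nL) (he : 0 < e) (hη : 0 < η) (hβ : 0 < β) (hμ : 0 < μ) (hB : 0 ≤ B)
    (hY : Y ≤ C1 * (1 / β) ^ k)
    (h : T * (nL * e / μ / (C2 * K * nL * (e * η ^ k) * (β / η) ^ k)) ≤ Y * (B * K) ^ D) :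
    T ≤ C1 * C2 * B ^ D * K ^ (D + 1) * μ := by
  have e1 : nL * e / μ / (C2 * K * nL * (e * η ^ k) * (β / η) ^ k) = 1 / (μ * C2 * K * β ^ k) := by
    rw [div_pow]
    field_simp
  rw [e1, mul_one_div, div_le_iff₀ (by positivity)] at h
  refine h.trans ((mul_le_mul_of_nonneg_right (mul_le_mul_of_nonneg_right hY (by positivity))
    (by positivity)).trans_eq ?_)
  rw [div_pow, one_pow, mul_pow, pow_succ]
  field_simp

theorem faDc_fib {Ω β : Type} (G : Finset Ω) (f : Ω → β) (Y : Finset β) {M : ℝ} (hM : 0 ≤ M)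
    (h : ∀ ω ∈ G, ∀ F ⊆ G, (∀ a ∈ F, f a = f ω) → (F.card : ℝ) ≤ M) (hY : ∀ a ∈ G, f a ∈ Y) :
    (G.card : ℝ) ≤ Y.card * M :=
  (card_le_fib G f fun ω hω => h ω hω _ (filter_subset _ _) fun _ ha => (mem_filter.1 ha).2).trans
    (mul_le_mul_of_nonneg_right (Nat.cast_le.2 (card_le_card (image_subset_iff.2 hY))) hM)

theorem fa_cells (D : ℕ) : ∃ C ≥ (1 : ℝ), ∀ {σ : ℝ} {m : ℕ} {d : Dat D} {N H K η ξ ξ1 r μ : ℝ},
    Reg σ m d N H K → 1 ≤ N → 1 ≤ K → Lip1 d K r → Lin d K η ξ → 1 / N ≤ η → η ≤ ξ1 → r ≤ ξ1 →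
    0 < μ → ∀ E2 ⊆ d.c.E,
    (∀ ω ∈ E2, ∀ ω' ∈ E2, ω.2 = ω'.2 → cell η (d.u ω) = cell η (d.u ω') →
      ‖d.st η ω - d.st η ω'‖ ≤ ξ1) →
    (∀ ω ∈ E2, ∃ G ⊆ E2, d.c.nL * η ^ ((m : ℝ) - σ) / μ ≤ G.card ∧
      ∀ ω' ∈ G, ω'.2 = ω.2 ∧ cell η (d.u ω') = cell η (d.u ω)) →
    ∀ β, ξ1 ≤ β → β ≤ 1 → ∀ (z : ℝ) (q : V D) (T : Finset (Fin D → ℤ)),
    (∀ c ∈ T, ∃ ω ∈ E2, ω.2 = z ∧ ‖d.u ω - q‖ ≤ β ∧ cell β (d.st η ω) = c) →
    (T.card : ℝ) ≤ C * K ^ (D + 1) * μ := by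
  obtain ⟨C1, c1, hT1⟩ := fa_nT D
  obtain ⟨C2, c2, hM1⟩ := fa_m1 D
  have D0 : (0 : ℝ) ≤ D := Nat.cast_nonneg D
  have B1 : (1 : ℝ) ≤ (8 + 2 * D) ^ D := one_le_pow₀ (by linarith)
  refine ⟨C1 * C2 * (8 + 2 * D) ^ D, one_le_mul_of_one_le_of_one_le
    (one_le_mul_of_one_le_of_one_le c1 c2) B1, ?_⟩
  intro σ m d N H K η ξ ξ1 r μ hR hN hK hl1 hl hη hηξ hr hμ E2 hE hst hG β hβ hβ1 z q T hT
  have η0 : 0 < η := lt_of_lt_of_le (by positivity) hη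
  have ηβ : η ≤ β := hηξ.trans hβ
  have β0 : 0 < β := η0.trans_le ηβ
  have n0 := hR.good.nL_pos
  have hm : m ≤ D := by
    rw [← hR.card_S]
    exact (card_le_univ _).trans_eq (Fintype.card_fin D)
  have e1 : η ^ ((D : ℝ) - σ) = η ^ ((m : ℝ) - σ) * η ^ (D - m) := by
    rw [← Real.rpow_natCast, ← Real.rpow_add η0, Nat.cast_sub hm]
    ring_nf
  have hY := hT1 hR β0 hβ1 z q ((E2.filter fun ω => ω.2 = z ∧ ‖d.u ω - q‖ ≤ 2 * β).image
    fun ω => cell β (d.c.pos ω)) fun c hc => by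
      obtain ⟨ω, hω, rfl⟩ := mem_image.1 hc
      obtain ⟨a1, a2, a3⟩ := mem_filter.1 hω
      exact ⟨ω, hE a1, a2, a3, rfl⟩
  refine faDc_num (by linarith) (by linarith) n0 (Real.rpow_pos_of_pos η0 ((m : ℝ) - σ)) η0 β0 hμ
    (by linarith) hY ?_
  rw [← e1, ← nsmul_eq_mul, ← nsmul_eq_mul]
  refine card_nsmul_le_card_nsmul (fun c y => ∃ ω ∈ E2, ∃ ω' ∈ E2, ω.2 = z ∧ ω'.2 = z ∧
    cell β (d.st η ω) = c ∧ cell η (d.u ω') = cell η (d.u ω) ∧ cell β (d.c.pos ω') = y)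
    (fun c hc => ?_) fun y hy => ?_
  · obtain ⟨ω, hω, hz, hq, hc'⟩ := hT c hc
    obtain ⟨G, hGE, hGc, hG'⟩ := hG ω hω
    rw [div_le_iff₀ (by positivity)]
    refine hGc.trans (faDc_fib G (fun ω => cell β (d.c.pos ω)) _ (by positivity)
      (fun ω' _ F hF hF' => ?_) fun a ha => ?_)
    · rw [← card_image_of_injOn (f := Prod.fst) fun a ha b hb e => Prod.ext e
        ((hG' a (hF ha)).1.trans (hG' b (hF hb)).1.symm)]
      refine hM1 hR hN hη ηβ hβ1 z (d.u ω) (d.c.pos ω') _ fun i hi => ?_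
      obtain ⟨a, ha, rfl⟩ := mem_image.1 hi
      obtain ⟨a3, a4⟩ := hG' a (hF ha)
      rw [← hz, ← a3]
      exact ⟨hE (hGE (hF ha)), by linarith [cell_close η0 a4],
        by linarith [cell_close β0 (hF' a ha)]⟩
    obtain ⟨a3, a4⟩ := hG' a ha
    refine (mem_bipartiteAbove _).2 ⟨mem_image_of_mem _ (mem_filter.2 ⟨hGE ha, a3.trans hz, ?_⟩),
      ω, hω, a, hGE ha, hz, a3.trans hz, hc', a4, rfl⟩
    linarith [norm_sub_le_norm_sub_add_norm_sub (d.u a) (d.u ω) q, cell_close η0 a4]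
  · obtain ⟨ω1, hω1, rfl⟩ := mem_image.1 hy
    obtain ⟨b1, b2, -⟩ := mem_filter.1 hω1
    have h1 := cover (E2.filter fun ω => ‖d.st η ω - d.st η ω1‖ ≤ (3 + D) * K * β) (d.st η)
      (d.st η ω1) β0 (ρ := (3 + D) * K * β) (by positivity) fun ω hω => by
        obtain ⟨-, a⟩ := mem_filter.1 hω
        exact a
    rw [Fintype.card_fin, mul_div_assoc, mul_div_cancel_right₀ _ β0.ne'] at h1
    refine le_trans (Nat.cast_le.2 (card_le_card fun c hc => ?_))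
      (h1.trans (pow_le_pow_left₀ (by positivity) (by nlinarith) D))
    obtain ⟨-, ω, hω, ω', hω', z1, z2, rfl, a4, a5⟩ := (mem_bipartiteBelow _).1 hc
    refine mem_image_of_mem _ (mem_filter.2 ⟨hω, ?_⟩)
    have h2 := hst ω hω ω' hω' (z1.trans z2.symm) a4.symm
    have h3 := fa_st_lip hl1 hl (by linarith) (hr.trans hβ) (hE hω') (hE b1) (z2.trans b2.symm)
      (cell_close β0 a5)
    have h4 := le_mul_of_one_le_left β0.le hK
    linarith [norm_sub_le_norm_sub_add_norm_sub (d.st η ω) (d.st η ω') (d.st η ω1)]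

end Vale.Agent.P127
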