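import Vale.Agent.P127.Api2

/-! # P127 Fa/Cnt (TASK): counting bounds for the block FA.  Helper names start with `faCnt_`.
All statements are about an arbitrary finset `T` whose members have witnesses; show `T ⊆` the image (or filter) in the Api2 lemma
by `mem_image`, `mem_filter` and use `card_le_card`.
nK: `T ⊆ Z.biUnion` over the heights (at most `K H`, `Pre.cardZ`, `Pre.sub`); at a fixed height r3A with `β = 1`, `β' = η`, `q = 0`,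
`A = 1 + 2 D 2^D` (`norm_mv`, `Gr.norm_le`, `Pre.norm_pos`).
n1: `u (i,z1) - u (i,z0) = mv (P z1 - P z0) (pos (i,z1)) + (z1 - z0) • mv (P z0) (e i)` (`pos_shift`, `sub_mv`, `mv_add`, `mv_smul`), so
`u (i,z1)` is within `A η` of the corner `fun j => η * y j` (`cell_corner`, `cz_close`, LipF), `A = (1 + 4 D + D 2^D) K`; r3A with `β = η`, `β' = ξ η`.
nT: ryA with `A = 2`, `β' = β`, `β = 1`, `q' = 0`.  m1: ruA with `A = 2` (`i ∈ L` by `Pre.sub`).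
box: `T ⊆ ({z} ×ˢ T1) ×ˢ T2`, `cover` for `u` about `mv (P z) q` (radius `D 2^D 2 η`) and for `pos` about `q`. -/

namespace Vale.Agent.P127

open Finset
open scoped Classical

theorem faCnt_mv {D : ℕ} {S : Finset (Fin D)} {P : ℝ → Mt D} (h : Gr S P) (z : ℝ) {v : V D}
    {r : ℝ} (hv : ‖v‖ ≤ r) : ‖mv (P z) v‖ ≤ D * 2 ^ D * r :=
  (norm_mv _ _).trans (mul_le_mul (mul_le_mul_of_nonneg_left (h.norm_le z) (Nat.cast_nonneg D)) hv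
    (norm_nonneg _) (by positivity))

theorem fa_nK (D : ℕ) : ∃ C ≥ (1 : ℝ), ∀ {σ : ℝ} {m : ℕ} {d : Dat D} {N H K η : ℝ},
    Reg σ m d N H K → 1 ≤ N → 1 ≤ H → 1 ≤ K → 1 / N ≤ η → η ≤ 1 →
    ∀ T : Finset (ℝ × (Fin D → ℤ)), (∀ k ∈ T, ∃ ω ∈ d.c.E, (ω.2, cell η (d.u ω)) = k) →
    (T.card : ℝ) ≤ C * K ^ 2 * H * (1 / η) ^ ((m : ℝ) - σ) := by
  obtain ⟨C, C1, hC⟩ := r3A D
  have A0 : (0 : ℝ) ≤ D * 2 ^ D := by positivity
  have A1 : (1 : ℝ) ≤ 1 + D * 2 ^ D * 2 := by linarith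
  refine ⟨C * (1 + D * 2 ^ D * 2) ^ D, one_le_mul_of_one_le_of_one_le C1 (one_le_pow₀ A1), ?_⟩
  intro σ m d N H K η h hN hH hK h1 h2 T hT
  have η0 := pos_A2 hN h1
  have s : T ⊆ d.c.Z.biUnion fun z => ((d.c.E.filter fun ω => ω.2 = z ∧
      ‖d.u ω - 0‖ ≤ (1 + D * 2 ^ D * 2) * 1).image fun ω => cell η (d.u ω)).image
        fun c => (z, c) := fun k hk => by
    obtain ⟨ω, hω, rfl⟩ := hT k hk
    refine mem_biUnion.2 ⟨ω.2, (mem_product.1 (h.good.sub hω)).2,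
      mem_image_of_mem _ (mem_image_of_mem _ (mem_filter.2 ⟨hω, rfl, ?_⟩))⟩
    rw [sub_zero, mul_one]
    exact (faCnt_mv h.gr ω.2 (h.good.toPre.norm_pos hω)).trans (by linarith)
  have b : (T.card : ℝ) ≤ d.c.Z.card •
      (C * (1 + D * 2 ^ D * 2) ^ D * K * (1 / η) ^ ((m : ℝ) - σ)) := by
    refine (Nat.cast_le.2 ((card_le_card s).trans card_biUnion_le)).trans ?_
    rw [Nat.cast_sum]
    exact sum_le_card_nsmul _ _ _ fun z _ => (Nat.cast_le.2 card_image_le).trans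
      (hC h hN _ z 1 η 0 A1 h1 h2 le_rfl)
  rw [nsmul_eq_mul] at b
  refine b.trans ((mul_le_mul_of_nonneg_right (h.good.toPre.cardZ hH) (by positivity)).trans_eq ?_)
  ring

theorem fa_n1 (D : ℕ) : ∃ C ≥ (1 : ℝ), ∀ {σ : ℝ} {m : ℕ} {d : Dat D} {N H K η ξ t : ℝ},
    Reg σ m d N H K → 1 ≤ N → 1 ≤ K → LipF d K t → t ≤ η → 0 < ξ → ξ ≤ 1 → 1 / N ≤ ξ * η → η ≤ 1 →
    ∀ (y : Fin D → ℤ) (z1 : ℝ) (T : Finset (Fin D → ℤ)),
    (∀ c ∈ T, ∃ i z0, (i, z1) ∈ d.c.E ∧ (i, z0) ∈ d.c.E ∧ cell η (d.u (i, z0)) = y ∧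
      cz η z0 = cz η z1 ∧ cell (ξ * η) (d.u (i, z1)) = c) →
    (T.card : ℝ) ≤ C * K ^ (D + 1) * (1 / ξ) ^ ((m : ℝ) - σ) := by
  obtain ⟨C, C1, hC⟩ := r3A D
  have D0 : (0 : ℝ) ≤ D := Nat.cast_nonneg D
  have A0 : (0 : ℝ) ≤ D * 2 ^ D := by positivity
  have A1 : (1 : ℝ) ≤ 1 + 4 * D + D * 2 ^ D := by linarith
  refine ⟨C * (1 + 4 * D + D * 2 ^ D) ^ D, one_le_mul_of_one_le_of_one_le C1 (one_le_pow₀ A1), ?_⟩
  intro σ m d N H K η ξ t h hN hK hL ht ξ0 ξ1 h1 h2 y z1 T hT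
  have η0 : 0 < η := (pos_iff_pos_of_mul_pos (pos_A2 hN h1)).1 ξ0
  have b := hC h hN ((1 + 4 * D + D * 2 ^ D) * K) z1 η (ξ * η) (fun j => η * (y j : ℝ))
    (one_le_mul_of_one_le_of_one_le A1 hK) h1 (mul_le_of_le_one_left η0.le ξ1) h2
  have e : η / (ξ * η) = 1 / ξ := by field_simp
  rw [e] at b
  refine (Nat.cast_le.2 (card_le_card fun c hc => ?_)).trans (b.trans_eq (by rw [mul_pow]; ring))
  obtain ⟨i, z0, a1, a0, rfl, a3, rfl⟩ := hT c hc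
  refine mem_image_of_mem _ (mem_filter.2 ⟨a1, rfl, ?_⟩)
  have c1 := cell_corner η0 (d.u (i, z0))
  have c2 : |z1 - z0| ≤ η := cz_close η0 a3.symm
  have e2 : d.u (i, z1) - d.u (i, z0) =
      mv (d.P z1 - d.P z0) (d.c.pos (i, z1)) + (z1 - z0) • mv (d.P z0) (d.c.e i) := by
    rw [sub_mv, ← mv_smul, sub_add, ← mv_sub, pos_shift d.c i z0 z1, add_sub_cancel_right]
    rw [← pos_shift]
    rfl
  have c3 : ‖mv (d.P z1 - d.P z0) (d.c.pos (i, z1))‖ ≤ D * (K * (η + η)) * 2 :=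
    (norm_mv _ _).trans (mul_le_mul (mul_le_mul_of_nonneg_left ((hL _ a1 _ a0).trans
      (mul_le_mul_of_nonneg_left (add_le_add c2 ht) (by linarith))) D0)
      (h.good.toPre.norm_pos a1) (norm_nonneg _) (by positivity))
  have c4 : ‖(z1 - z0) • mv (d.P z0) (d.c.e i)‖ ≤ η * (D * 2 ^ D * 1) := by
    rw [norm_smul]
    exact mul_le_mul c2 (faCnt_mv h.gr z0 (h.good.be i (mem_product.1 (h.good.sub a0)).1))
      (norm_nonneg _) η0.le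
  have c5 := norm_sub_le_norm_sub_add_norm_sub (d.u (i, z1)) (d.u (i, z0))
    fun j => η * (cell η (d.u (i, z0)) j : ℝ)
  have c6 := norm_add_le (mv (d.P z1 - d.P z0) (d.c.pos (i, z1)))
    ((z1 - z0) • mv (d.P z0) (d.c.e i))
  rw [← e2] at c6
  have c7 := mul_le_mul_of_nonneg_left hK (show 0 ≤ (1 + D * 2 ^ D) * η by positivity)
  linarith

theorem fa_nT (D : ℕ) : ∃ C ≥ (1 : ℝ), ∀ {σ : ℝ} {m : ℕ} {d : Dat D} {N H K β : ℝ},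
    Reg σ m d N H K → 0 < β → β ≤ 1 → ∀ (z : ℝ) (q : V D) (T : Finset (Fin D → ℤ)),
    (∀ c ∈ T, ∃ ω ∈ d.c.E, ω.2 = z ∧ ‖d.u ω - q‖ ≤ 2 * β ∧ cell β (d.c.pos ω) = c) →
    (T.card : ℝ) ≤ C * (1 / β) ^ (D - m) := by
  obtain ⟨C, C1, hC⟩ := ryA D
  refine ⟨C * 2 ^ (2 * D), one_le_mul_of_one_le_of_one_le C1 (one_le_pow₀ one_le_two), ?_⟩
  intro σ m d N H K β h h0 h1 z q T hT
  refine (Nat.cast_le.2 (card_le_card fun c hc => ?_)).trans (hC h 2 z 1 β q 0 one_le_two h0 h1)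
  obtain ⟨ω, hω, a1, a2, rfl⟩ := hT c hc
  refine mem_image_of_mem _ (mem_filter.2 ⟨hω, a1, a2, ?_⟩)
  rw [sub_zero, mul_one]
  exact h.good.toPre.norm_pos hω

theorem fa_m1 (D : ℕ) : ∃ C ≥ (1 : ℝ), ∀ {σ : ℝ} {m : ℕ} {d : Dat D} {N H K β β' : ℝ},
    Reg σ m d N H K → 1 ≤ N → 1 / N ≤ β' → β' ≤ β → β ≤ 1 →
    ∀ (z : ℝ) (q q' : V D) (T : Finset ℕ),
    (∀ i ∈ T, (i, z) ∈ d.c.E ∧ ‖d.u (i, z) - q‖ ≤ 2 * β' ∧ ‖d.c.pos (i, z) - q'‖ ≤ 2 * β) →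
    (T.card : ℝ) ≤ C * K * d.c.nL * β' ^ ((D : ℝ) - σ) * (β / β') ^ (D - m) := by
  obtain ⟨C, C1, hC⟩ := ruA D
  refine ⟨C * 2 ^ (2 * D), one_le_mul_of_one_le_of_one_le C1 (one_le_pow₀ one_le_two), ?_⟩
  intro σ m d N H K β β' h hN h0 h1 h2 z q q' T hT
  exact (Nat.cast_le.2 (card_le_card fun i hi =>
    mem_filter.2 ⟨(mem_product.1 (h.good.sub (hT i hi).1)).1, hT i hi⟩)).trans
      (hC h hN 2 z β β' q q' one_le_two h0 h1 h2)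

theorem fa_box (D : ℕ) : ∃ C ≥ (1 : ℝ), ∀ {d : Dat D} {η : ℝ}, Gr d.S d.P → 0 < η →
    ∀ (z : ℝ) (q : V D) (T : Finset ((ℝ × (Fin D → ℤ)) × (Fin D → ℤ))),
    (∀ c ∈ T, ∃ ω ∈ d.c.E, ω.2 = z ∧ ‖d.c.pos ω - q‖ ≤ 2 * η ∧
      ((ω.2, cell η (d.u ω)), cell η (d.c.pos ω)) = c) → (T.card : ℝ) ≤ C := by
  have A0 : (0 : ℝ) ≤ D * 2 ^ D := by positivity
  refine ⟨(4 * (D * 2 ^ D) + 2) ^ D * 6 ^ D, one_le_mul_of_one_le_of_one_le
    (one_le_pow₀ (by linarith)) (one_le_pow₀ (by norm_num)), ?_⟩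
  intro d η hg h0 z q T hT
  obtain ⟨E, hE⟩ : ∃ E, E = d.c.E.filter fun ω => ω.2 = z ∧ ‖d.c.pos ω - q‖ ≤ 2 * η := ⟨_, rfl⟩
  have m : ∀ ω, ω ∈ E ↔ ω ∈ d.c.E ∧ ω.2 = z ∧ ‖d.c.pos ω - q‖ ≤ 2 * η := fun ω => by
    rw [hE, mem_filter]
  have b1 := cover E d.u (mv (d.P z) q) (ρ := D * 2 ^ D * (2 * η)) h0 (by positivity) fun ω hω => by
    obtain ⟨-, rfl, a⟩ := (m ω).1 hω
    rw [Dat.u, ← mv_sub]
    exact faCnt_mv hg _ a
  have b2 := cover E d.c.pos q (ρ := 2 * η) h0 (by positivity) fun ω hω => ((m ω).1 hω).2.2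
  have e1 : 2 * (D * 2 ^ D * (2 * η)) / η + 2 = 4 * (D * 2 ^ D) + 2 := by
    field_simp
    ring
  have e2 : 2 * (2 * η) / η + 2 = 6 := by
    field_simp
    ring
  rw [e1, Fintype.card_fin] at b1
  rw [e2, Fintype.card_fin] at b2
  refine le_trans ?_ (mul_le_mul b1 b2 (Nat.cast_nonneg _) (by positivity))
  have s : T ⊆ ({z} ×ˢ E.image fun ω => cell η (d.u ω)) ×ˢ E.image fun ω => cell η (d.c.pos ω) :=
    fun c hc => by
      obtain ⟨ω, hω, a1, a2, rfl⟩ := hT c hc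
      have a3 := (m ω).2 ⟨hω, a1, a2⟩
      exact mem_product.2 ⟨mem_product.2 ⟨mem_singleton.2 a1, mem_image_of_mem _ a3⟩,
        mem_image_of_mem _ a3⟩
  have s' := card_le_card s
  rw [card_product, card_product, card_singleton, one_mul] at s'
  exact_mod_cast s'

end Vale.Agent.P127
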