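import Vale.Agent.P127.Flat
import Vale.Agent.P127.Fa.Cnt
import Vale.Agent.P127.Fa.Rel

/-! # P127 Fa/Inst: the instance of `flat` for the block FA. -/

namespace Vale.Agent.P127

open Finset
open scoped Classical

variable {D : ℕ}

/-- minus the corrected slope of a representative -/
noncomputable def faW (d : Dat D) (η : ℝ) (k : ℝ × (Fin D → ℤ)) (t : Fin D → ℤ) : V D :=
  if h : ∃ ω ∈ d.c.E, (ω.2, cell η (d.u ω)) = k ∧ cell η (d.c.pos ω) = t then -d.st η h.choose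
  else 0

theorem faW_out {d : Dat D} {K η ξ : ℝ} (hg : Gr d.S d.P) (hl : Lin d K η ξ)
    (k : ℝ × (Fin D → ℤ)) (t : Fin D → ℤ) {i : Fin D} (hi : i ∉ d.S) : faW d η k t i = 0 := by
  unfold faW
  split_ifs with h
  · rw [Pi.neg_apply, fa_st_out hg hl _ hi, neg_zero]
  · rfl

theorem faW_rep {d : Dat D} (η : ℝ) {ω : ℕ × ℝ} (hω : ω ∈ d.c.E) :
    ∃ ω' ∈ d.c.E, ω'.2 = ω.2 ∧ cell η (d.c.pos ω') = cell η (d.c.pos ω) ∧
      faW d η (ω.2, cell η (d.u ω)) (cell η (d.c.pos ω)) = -d.st η ω' := by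
  have h : ∃ ω' ∈ d.c.E, (ω'.2, cell η (d.u ω')) = (ω.2, cell η (d.u ω)) ∧
      cell η (d.c.pos ω') = cell η (d.c.pos ω) := ⟨ω, hω, rfl, rfl⟩
  refine ⟨h.choose, h.choose_spec.1, (Prod.ext_iff.1 h.choose_spec.2.1).1, h.choose_spec.2.2, ?_⟩
  unfold faW
  rw [dif_pos h]

theorem faW_near {d : Dat D} {K η ξ r : ℝ} (h1 : Lip1 d K r) (hl : Lin d K η ξ) (hK : 0 ≤ K)
    (hη : 0 < η) (hr : r ≤ η) {ω : ℕ × ℝ} (hω : ω ∈ d.c.E) :
    ‖faW d η (ω.2, cell η (d.u ω)) (cell η (d.c.pos ω)) + d.st η ω‖ ≤ (2 + D) * K * η := by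
  obtain ⟨ω', h', hz, hc, e⟩ := faW_rep η hω
  rw [e, neg_add_eq_sub]
  exact fa_st_lip h1 hl hK hr hω h' hz.symm (cell_close hη hc.symm)

theorem faInst_prod {η ξ σ : ℝ} (hη : 0 < η) (hξ : 0 < ξ) {D m : ℕ} (h : m ≤ D) :
    (1 / η) ^ ((m : ℝ) - σ) * (1 / ξ) ^ ((m : ℝ) - σ) * (1 / η) ^ (D - m) *
      ((ξ * η) ^ ((D : ℝ) - σ) * (η / (ξ * η)) ^ (D - m)) = 1 := by
  obtain ⟨k, rfl⟩ := Nat.exists_eq_add_of_le h
  have e : ((m + k : ℕ) : ℝ) - σ = ((m : ℝ) - σ) + k := by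
    push_cast
    ring
  rw [Nat.add_sub_cancel_left, e, Real.rpow_add (by positivity), Real.rpow_natCast]
  have h1 : (1 / η) ^ ((m : ℝ) - σ) * (1 / ξ) ^ ((m : ℝ) - σ) * (ξ * η) ^ ((m : ℝ) - σ) = 1 := by
    rw [← Real.mul_rpow (by positivity) (by positivity),
      ← Real.mul_rpow (by positivity) (by positivity),
      show 1 / η * (1 / ξ) * (ξ * η) = 1 by field_simp, Real.one_rpow]
  have h2 : (1 / η) ^ k * (ξ * η) ^ k * (η / (ξ * η)) ^ k = 1 := by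
    rw [← mul_pow, ← mul_pow, show 1 / η * (ξ * η) * (η / (ξ * η)) = 1 by field_simp, one_pow]
  calc _ = ((1 / η) ^ ((m : ℝ) - σ) * (1 / ξ) ^ ((m : ℝ) - σ) * (ξ * η) ^ ((m : ℝ) - σ)) *
        ((1 / η) ^ k * (ξ * η) ^ k * (η / (ξ * η)) ^ k) := by ring
    _ = 1 := by rw [h1, h2, one_mul]

theorem fa_exps {a N : ℝ} (ha : 0 < a) (ha1 : a ≤ 1 / 100) (hN : 1 ≤ N) :
    N ^ (-(1 / 6) : ℝ) ≤ N ^ (-a) ∧ N ^ (-a) ≤ 1 ∧ N ^ (-(2 / 5) : ℝ) ≤ N ^ (-(1 / 6) : ℝ) ∧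
    N ^ (-(1 / 3) : ℝ) ≤ N ^ (-(1 / 6) : ℝ) ∧ 1 / N ≤ N ^ (-a) * N ^ (-(1 / 6) : ℝ) ∧
    N ^ (a / 4) ≤ N ^ (1 / 3 : ℝ) * N ^ (-(1 / 6) : ℝ) ∧ 1 ≤ N ^ (1 / 3 : ℝ) ∧
    N ^ (a / 4) * (N ^ (-a) * N ^ (a / 4)) = N ^ (-(a / 2)) ∧ 1 ≤ N ^ (a / 4) ∧
    N ^ (-a) ≤ N ^ (-(a / 2)) ∧ N ^ (-(a / 2)) ≤ 1 := by
  have h0 : 0 < N := by linarith
  have hm : ∀ {x y : ℝ}, x ≤ y → N ^ x ≤ N ^ y := fun h => Real.rpow_le_rpow_of_exponent_le hN h
  refine ⟨hm (by linarith), Real.rpow_le_one_of_one_le_of_nonpos hN (by linarith),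
    hm (by norm_num), hm (by norm_num), ?_, ?_, Real.one_le_rpow hN (by norm_num), ?_,
    Real.one_le_rpow hN (by positivity), hm (by linarith),
    Real.rpow_le_one_of_one_le_of_nonpos hN (by linarith)⟩
  · rw [← Real.rpow_add h0, one_div, ← Real.rpow_neg_one]
    exact hm (by linarith)
  · rw [← Real.rpow_add h0]
    exact hm (by linarith)
  · rw [← Real.rpow_add h0, ← Real.rpow_add h0]
    congr 1
    ring

theorem faInst_num {C C5 B K Kf : ℝ} {c : ℕ} (hC : 0 ≤ C) (hC5 : 0 ≤ C5) (hB : 0 ≤ B) (hK : 1 ≤ K)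
    (h : (C + C5 + B + 1) * K ^ (c + 1) ≤ Kf) :
    K ≤ Kf ∧ C * K ^ (c + 1) ≤ Kf ∧ C5 ≤ Kf ∧ B * K ≤ Kf := by
  have h1 : K ≤ K ^ (c + 1) := le_self_pow₀ hK (Nat.succ_ne_zero c)
  have h2 : 0 ≤ K ^ (c + 1) := by positivity
  have h3 := mul_nonneg hC h2
  have h4 := mul_nonneg hC5 h2
  have h5 := mul_nonneg hB h2
  have h6 := mul_le_mul_of_nonneg_left (hK.trans h1) hC5
  have h7 := mul_le_mul_of_nonneg_left h1 hB
  refine ⟨?_, ?_, ?_, ?_⟩ <;> nlinarith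

theorem fa_inst {D m : ℕ} {σ a : ℝ} (hm : 1 ≤ m) (hNI : ¬ Inh (D := D) (CK σ (m - 1)))
    (ha : 0 < a) (ha1 : a ≤ 1 / 100) {ε1 : ℝ} (hε1 : 0 < ε1) :
    ∃ ε0 > (0 : ℝ), ∃ N0 : ℝ, ∀ ε, 0 < ε → ε ≤ ε0 → ∀ N ≥ N0, ∀ d : Dat D,
    S4 a σ m d N (N ^ ε) → ∃ E' ⊆ d.c.E, d.c.nL * N ^ (1 / 3 : ℝ) / N ^ ε1 ≤ E'.card ∧
      ∀ ω ∈ E', ∀ ω' ∈ E', ω.2 = ω'.2 →
        cell (N ^ (-(1 / 6) : ℝ)) (d.u ω) = cell (N ^ (-(1 / 6) : ℝ)) (d.u ω') →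
        ‖d.st (N ^ (-(1 / 6) : ℝ)) ω - d.st (N ^ (-(1 / 6) : ℝ)) ω'‖ ≤ N ^ (-(a / 2)) := by
  obtain ⟨εf, hεf, Nf, hf⟩ := flat hm hNI (ε2 := a / 4) (by positivity) ε1 hε1
  obtain ⟨C1, hC1, c1⟩ := fa_nK D
  obtain ⟨C2, hC2, c2⟩ := fa_n1 D
  obtain ⟨C3, hC3, c3⟩ := fa_nT D
  obtain ⟨C4, hC4, c4⟩ := fa_m1 D
  obtain ⟨C5, hC5, c5⟩ := fa_box D
  obtain ⟨e1, he1, N1, s1⟩ := small (C1 * C2 * C3 * C4 + C5 + (D * 2 ^ D + 2 * D) + 1)
    (D + 3 + 1) hεf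
  obtain ⟨e2, he2, N2, s2⟩ := small (14 + 18 * D) 1 (b := a / 4) (by positivity)
  refine ⟨min e1 e2, lt_min he1 he2, max Nf (max N1 N2), fun ε hε hε0 N hN d hd => ?_⟩
  obtain ⟨hN2, t1⟩ := s1 ε hε (hε0.trans (min_le_left _ _)) N
    (((le_max_left _ _).trans (le_max_right _ _)).trans hN)
  obtain ⟨-, t2⟩ := s2 ε hε (hε0.trans (min_le_right _ _)) N
    (((le_max_right _ _).trans (le_max_right _ _)).trans hN)
  have hN1 : 1 ≤ N := by linarith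
  have hN0 : 0 < N := by linarith
  have hf' := hf N ((le_max_left _ _).trans hN) d
  obtain ⟨⟨⟨hR, hL1, hLF⟩, hLin⟩, -⟩ := hd
  obtain ⟨x1, x2, x3, x4, x5, x6, x7, x8, x9, -, -⟩ := fa_exps ha ha1 hN1
  have hK : 1 ≤ N ^ ε := Real.one_le_rpow hN1 hε.le
  have hη : 0 < N ^ (-(1 / 6) : ℝ) := Real.rpow_pos_of_pos hN0 _
  have hξ : 0 < N ^ (-a) := Real.rpow_pos_of_pos hN0 _
  rw [pow_one] at t2
  generalize N ^ ε = K at *
  generalize N ^ (-(1 / 6) : ℝ) = η at *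
  generalize N ^ (-a) = ξ at *
  generalize N ^ (1 / 3 : ℝ) = H at *
  generalize N ^ (a / 4) = X at *
  obtain ⟨k1, k2, k3, k4⟩ := faInst_num (by positivity) (by positivity) (by positivity) hK t1
  have hK0 : 0 < K := by linarith
  have hH0 : 0 < H := by linarith
  have hη1 : η ≤ 1 := x1.trans x2
  have hξη : ξ * η ≤ η := mul_le_of_le_one_left hη.le x2
  have hnL := hR.good.nL_pos
  have hmD : m ≤ D := by
    rw [← hR.card_S]
    exact (card_le_univ _).trans (Fintype.card_fin D).le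
  have hD : (0 : ℝ) ≤ D := Nat.cast_nonneg D
  have hnear : ∀ ω ∈ d.c.E,
      ‖faW d η (ω.2, cell η (d.u ω)) (cell η (d.c.pos ω)) + d.st η ω‖ ≤ (2 + D) * K * η :=
    fun ω hω => faW_near hL1 hLin hK0.le hη x3 hω
  obtain ⟨E', hE', hc, hw⟩ := hf' H (N ^ εf) η ((1 + 2 * ((2 + D) * K) + 6 * D * K) * (ξ * η))
    (C1 * K ^ 2 * H * (1 / η) ^ ((m : ℝ) - σ)) (C2 * K ^ (D + 1) * (1 / ξ) ^ ((m : ℝ) - σ))
    (C3 * (1 / η) ^ (D - m))
    (C4 * K * d.c.nL * (ξ * η) ^ ((D : ℝ) - σ) * (η / (ξ * η)) ^ (D - m)) 1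
    (ℝ × (Fin D → ℤ)) (Fin D → ℤ) (Fin D → ℤ) (fun ω => (ω.2, cell η (d.u ω)))
    (fun ω => cell η (d.c.pos ω)) (faW d η) (fun ω => cell (ξ * η) (d.u ω)) rfl
    (hR.mono hN0 hH0 hK0 k1) (Or.inl rfl) hη hη1 x6
    (x5.trans (le_mul_of_one_le_left (by positivity) (by
      have : 0 ≤ 2 * ((2 + D) * K) + 6 * D * K := by positivity
      linarith)))
    (by positivity) (by positivity) (by positivity) (by positivity)
    (fun ω _ ω' _ h => (Prod.ext_iff.1 h).1) (fun k t i hi => faW_out hR.gr hLin k t hi)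
    (fun ω hω => by
      obtain ⟨ω', h', -, -, e⟩ := faW_rep η hω
      rw [e, norm_neg]
      exact (fa_st_norm hR.good.toPre hR.gr hLin hK h').trans k4)
    (c1 hR hN1 x7 hK (x5.trans hξη) hη1 _ fun k hk => by
      simp only [mem_image] at hk
      exact hk)
    (fun k0 z1 => c2 hR hN1 hK hLF x4 hξ x2 x5 hη1 k0.2 z1 _ fun c hc => by
      simp only [mem_image, mem_filter] at hc
      obtain ⟨i, ⟨-, h1, z0, h2, h3, h4⟩, h5⟩ := hc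
      exact ⟨i, z0, h1, h2, (Prod.ext_iff.1 h3).2, h4, h5⟩)
    (fun k0 => c3 hR hη hη1 k0.1 (fun j => η * (k0.2 j : ℝ)) _ fun c hc => by
      simp only [mem_image, mem_filter] at hc
      obtain ⟨ω, ⟨h1, h2⟩, h3⟩ := hc
      refine ⟨ω, h1, (Prod.ext_iff.1 h2).1, ?_, h3⟩
      have := cell_corner hη (d.u ω)
      rw [← h2]
      linarith)
    (fun k0 t z1 γ => c4 hR hN1 x5 hξη hη1 z1 (fun j => ξ * η * (γ j : ℝ))
      (fun j => η * (t j : ℝ)) _ fun i hi => by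
      simp only [mem_filter] at hi
      obtain ⟨hiL, h1, h2, z0, -, -, h5, h6⟩ := hi
      have g1 := cell_corner (mul_pos hξ hη) (d.u (i, z1))
      have g2 := cell_corner hη (d.c.pos (i, z0))
      have g3 := mul_pos hξ hη
      rw [h2] at g1
      rw [h5] at g2
      refine ⟨h1, by linarith, ?_⟩
      rw [pos_shift d.c i z0 z1, add_sub_right_comm]
      refine (norm_add_le _ _).trans ?_
      rw [norm_smul, Real.norm_eq_abs]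
      have g4 := mul_le_mul (cz_close hη h6.symm) (hR.good.be i hiL) (norm_nonneg _) hη.le
      linarith)
    (by
      have g := faInst_prod (σ := σ) hη hξ hmD
      calc _ = C1 * C2 * C3 * C4 * K ^ (D + 3 + 1) * d.c.nL * H *
            ((1 / η) ^ ((m : ℝ) - σ) * (1 / ξ) ^ ((m : ℝ) - σ) * (1 / η) ^ (D - m) *
              ((ξ * η) ^ ((D : ℝ) - σ) * (η / (ξ * η)) ^ (D - m))) := by ring
        _ ≤ _ := by
          rw [g, mul_one]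
          gcongr)
    (fun i i' z0 z1 h0 h0' h1 h1' _ hc1 hz =>
      fa_rel hR.good.toPre hLin hK hη x1 (by positivity) h0 h0' h1 h1' hz
        (cell_close (mul_pos hξ hη) hc1) (hnear _ h0) (hnear _ h0'))
    (fun z p q => (c5 hR.gr hη z q _ fun c hc => by
      simp only [mem_image, mem_filter] at hc
      obtain ⟨ω, ⟨h1, h2, -, h3⟩, h4⟩ := hc
      exact ⟨ω, h1, h2, h3, h4⟩).trans k3)
  refine ⟨E', hE', hc, fun ω hω ω' hω' hz hu => ?_⟩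
  have g1 := hw ω hω ω' hω' (Prod.ext hz hu)
  have g2 := hnear ω (hE' hω)
  have g3 := hnear ω' (hE' hω')
  generalize faW d η (ω.2, cell η (d.u ω)) (cell η (d.c.pos ω)) = w at *
  generalize faW d η (ω'.2, cell η (d.u ω')) (cell η (d.c.pos ω')) = w' at *
  have g4 : d.st η ω - d.st η ω' = (w + d.st η ω) - (w' + d.st η ω') - (w - w') := by abel
  have g5 := (norm_sub_le _ _).trans (add_le_add (norm_sub_le (w + d.st η ω) (w' + d.st η ω'))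
    (le_refl ‖w - w'‖))
  have g6 : 2 * ((1 + 2 * ((2 + D) * K) + 6 * D * K) * (ξ * η)) * X / η ^ 1 =
      2 * (1 + 2 * ((2 + D) * K) + 6 * D * K) * (ξ * X) := by
    field_simp
  have g7 : η ≤ ξ * X := x1.trans (le_mul_of_one_le_right hξ.le x9)
  have g8 : (2 + D) * K * η ≤ (2 + D) * K * (ξ * X) :=
    mul_le_mul_of_nonneg_left g7 (by positivity)
  have g9 : (14 + 18 * D) * K * (ξ * X) ≤ X * (ξ * X) :=
    mul_le_mul_of_nonneg_right t2 (by positivity)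
  have g10 : 1 * (ξ * X) ≤ K * (ξ * X) := mul_le_mul_of_nonneg_right hK (by positivity)
  rw [g4, ← x8]
  rw [g6] at g1
  linarith

end Vale.Agent.P127
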